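import Vale.Agent.P235.R2.H483U.Proc
import Vale.Agent.P235.H957.Final

/-!
P235, bounded treewidth with an explicit constant, part 4: the constant.
-/

namespace Vale.Agent.P235.H483U

open Finset Vale.Agent.P235.H263

/-- `M k = (4 (k+1))^(k+2)` -/
def MM (k : ℕ) : ℕ := (4 * (k + 1)) ^ (k + 2)

theorem MM_pos (k : ℕ) : 1 ≤ MM k := Nat.one_le_pow _ _ (by omega)

/-- bound for `1 / κ` -/
def W (k : ℕ) : ℕ := WW k (H732.Bags.LL k) (MM k)

theorem W_pos (k : ℕ) : 1 ≤ W k := by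
  unfold W WW
  have h1 := nC_pos k (H732.Bags.LL k) (2 * MM k)
  have h2 := MM_pos k
  have : 0 < 192 * MM k ^ 2 * nC k (H732.Bags.LL k) (2 * MM k) * (2 * MM k) ^ H732.Bags.LL k := by
    positivity
  omega

theorem hyp_eta (k : ℕ) : ((k + 1 : ℕ) : ℝ) * (1 / (MM k : ℝ)) ≤
    H926.PathChain.thSeq (k + 1) (k + 1 - 1) / 4 := by
  unfold H926.PathChain.thSeq MM
  rw [Nat.add_sub_cancel]
  push_cast
  have h : (1 : ℝ) ≤ (k : ℝ) + 1 := by
    have : (0 : ℝ) ≤ k := Nat.cast_nonneg k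
    linarith
  have h4 : (0 : ℝ) < (4 * ((k : ℝ) + 1)) ^ k := by positivity
  have e1 : (4 * ((k : ℝ) + 1)) ^ (k + 2) = (4 * ((k : ℝ) + 1)) ^ k * (16 * ((k : ℝ) + 1) ^ 2) := by
    rw [pow_add]; ring
  rw [e1]
  have e2 : ((k : ℝ) + 1) * (1 / ((4 * ((k : ℝ) + 1)) ^ k * (16 * ((k : ℝ) + 1) ^ 2))) =
      1 / (((k : ℝ) + 1) * (4 * ((k : ℝ) + 1)) ^ k) / 16 := by
    field_simp
  rw [e2]
  have h5 : 0 ≤ 1 / (((k : ℝ) + 1) * (4 * ((k : ℝ) + 1)) ^ k) := by positivity
  linarith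

/-- the constant of claim F is at most `(W (4K)^K)^K` -/
theorem C1_le {K : ℕ} (hK : 0 < K) {κ : ℝ} (hκ : 0 < κ) {w : ℝ} (hw : 1 ≤ w) (h : 1 / w ≤ κ) :
    1 + H926.PathChain.C1 K κ ≤ (w * (4 * (K : ℝ)) ^ K) ^ K := by
  have hKR : (1 : ℝ) ≤ K := by exact_mod_cast hK
  have key : ∀ l ≤ K, 1 + H926.PathChain.sumSeq K κ l ≤ (w * (4 * (K : ℝ)) ^ K) ^ l := by
    intro l
    induction l with
    | zero => intro _; simp [H926.PathChain.sumSeq]
    | succ l ih =>
      intro hl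
      have h1 := ih (by omega)
      have h0 := H926.PathChain.sumSeq_nonneg hK hκ l
      have h2 : 2 / κ ≤ 2 * w := by
        rw [div_le_iff₀ hκ]
        rw [div_le_iff₀ (by linarith)] at h
        nlinarith
      have e1 : 1 + H926.PathChain.sumSeq K κ (l + 1) = (1 + H926.PathChain.sumSeq K κ l) *
          (1 + 2 / κ * ((K : ℝ) * (4 * K) ^ l)) := by
        show 1 + (H926.PathChain.sumSeq K κ l + (2 / κ * (1 + H926.PathChain.sumSeq K κ l)) /
          H926.PathChain.thSeq K l) = _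
        unfold H926.PathChain.thSeq
        rw [div_div_eq_mul_div, div_one]
        ring
      have h3 : (4 * (K : ℝ)) ^ (l + 1) ≤ (4 * (K : ℝ)) ^ K :=
        pow_le_pow_right₀ (by linarith) hl
      have h4 : 1 + 2 / κ * ((K : ℝ) * (4 * K) ^ l) ≤ w * (4 * (K : ℝ)) ^ K := by
        have h5 : (1 : ℝ) ≤ (4 * (K : ℝ)) ^ l := one_le_pow₀ (by linarith)
        have h6 : (K : ℝ) * (4 * K) ^ l = (4 * (K : ℝ)) ^ (l + 1) / 4 := by
          rw [pow_succ]; ring
        have h7 : (4 : ℝ) ≤ (4 * (K : ℝ)) ^ (l + 1) := by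
          rw [pow_succ]; nlinarith
        have h8 : 2 / κ * ((K : ℝ) * (4 * K) ^ l) ≤ 2 * w * ((4 * (K : ℝ)) ^ (l + 1) / 4) := by
          rw [h6]
          exact mul_le_mul_of_nonneg_right h2 (by positivity)
        have h9 : w * (4 * (K : ℝ)) ^ (l + 1) ≤ w * (4 * (K : ℝ)) ^ K :=
          mul_le_mul_of_nonneg_left h3 (by linarith)
        nlinarith
      rw [e1, pow_succ]
      have h10 : 0 ≤ 1 + 2 / κ * ((K : ℝ) * (4 * K) ^ l) := by positivity
      exact mul_le_mul h1 h4 h10 (by positivity)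
  unfold H926.PathChain.C1
  rw [← H926.PathChain.sumSeq_eq]
  exact key K le_rfl

/-- random cuts for all metrics in elimination form, with an explicit constant -/
theorem exists_target (k : ℕ) : ∃ c : ℝ, 0 < c ∧ Target k c ∧
    1 / c ≤ 384 * (W k : ℝ) * ((W k : ℝ) * (4 * ((k : ℝ) + 1)) ^ (k + 1)) ^ (k + 1) *
      36 ^ (2 ^ (k + 1)) := by
  have hkk : 0 < k + 1 := Nat.succ_pos k
  obtain ⟨κ, hκ, hW, H⟩ := exists_proc_elim k (MM_pos k)
  have hMM : (1 : ℝ) ≤ MM k := by exact_mod_cast MM_pos k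
  have hM4 : (4 : ℝ) ≤ MM k := by
    have h : 4 ≤ MM k := by
      unfold MM
      calc 4 ≤ 4 * (k + 1) := by omega
        _ = (4 * (k + 1)) ^ 1 := (pow_one _).symm
        _ ≤ _ := Nat.pow_le_pow_right (by omega) (by omega)
    exact_mod_cast h
  have hC1p := H926.PathChain.C1_pos hkk hκ
  have hκ' : 0 < min (κ / 2) (1 : ℝ) := lt_min (by positivity) one_pos
  refine ⟨H684.cEnd k (min (κ / 2) 1) (H926.PathChain.C1 (k + 1) κ), H684.cEnd_pos hκ' hC1p, ?_, ?_⟩
  · intro n A d hn hA hS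
    obtain ⟨R⟩ := H n A d hA hS
    refine H684.end_cut hn hA hS hκ' (min_le_right _ _) hC1p ?_
    refine H957.local_of_proc hA hS hκ ?_ hkk (Nat.le_succ k) (hyp_eta k) R
    rw [div_le_div_iff₀ (by linarith) (by norm_num)]
    linarith
  · have hw : (1 : ℝ) ≤ W k := by exact_mod_cast W_pos k
    have hC := C1_le hkk hκ hw (by exact hW)
    push_cast at hC
    set B : ℝ := ((W k : ℝ) * (4 * ((k : ℝ) + 1)) ^ (k + 1)) ^ (k + 1) with hB
    set E : ℝ := 36 ^ (2 ^ (k + 1)) with hE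
    have hE1 : 1 ≤ E := one_le_pow₀ (by norm_num)
    have hC1 : H926.PathChain.C1 (k + 1) κ ≤ B := by linarith
    have hB1 : 1 ≤ B := by linarith
    have hk2 : 1 / (2 * (W k : ℝ)) ≤ min (κ / 2) 1 := by
      refine le_min ?_ ?_
      · have : 1 / (2 * (W k : ℝ)) = 1 / (W k : ℝ) / 2 := by field_simp
        rw [this]
        have h2 : 1 / (W k : ℝ) ≤ κ := hW
        linarith
      · rw [div_le_one (by linarith)]
        linarith
    have hKK : H254.KK (2 ^ (k + 1)) = 24 * E := rfl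
    have hc : 1 / (384 * (W k : ℝ) * B * E) ≤
        H684.cEnd k (min (κ / 2) 1) (H926.PathChain.C1 (k + 1) κ) := by
      unfold H684.cEnd
      rw [hKK]
      refine le_min ?_ ?_
      · have h1 : 1 / (384 * (W k : ℝ) * B * E) ≤ 1 / (2 * (W k : ℝ)) / 2 := by
          rw [div_div, div_le_div_iff₀ (by positivity) (by positivity)]
          have h2 : 1 ≤ B * E := by nlinarith
          nlinarith
        linarith
      · have h1 : 1 / (384 * (W k : ℝ) * B * E) = 1 / (2 * (W k : ℝ)) / 8 / (B * (24 * E)) := by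
          field_simp
          norm_num
        rw [h1]
        refine div_le_div₀ (by positivity) (by linarith) (by positivity) ?_
        exact mul_le_mul_of_nonneg_right hC1 (by positivity)
    have hcp := H684.cEnd_pos (k := k) hκ' hC1p
    rw [div_le_iff₀ (by positivity)] at hc
    rw [div_le_iff₀ hcp]
    linarith

end Vale.Agent.P235.H483U
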