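import Vale.Agent.P235.R2.H483U.Bound

/-!
P235, bounded treewidth with an explicit constant, part 5: the explicit bound.
-/

namespace Vale.Agent.P235.H483U

open Finset Vale.Agent.P235.H263

theorem four_le (K : ℕ) (hK : 1 ≤ K) : 4 * K ≤ 2 ^ (K + 1) := by
  obtain ⟨j, rfl⟩ : ∃ j, K = j + 1 := ⟨K - 1, by omega⟩
  have h := Nat.lt_two_pow_self (n := j)
  have e : 2 ^ (j + 1 + 1) = 4 * 2 ^ j := by ring
  rw [e]
  omega

theorem two_MM_le (k : ℕ) : 2 * MM k ≤ 2 ^ (5 * (k + 1) ^ 2) := by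
  unfold MM
  have h1 : (4 * (k + 1)) ^ (k + 2) ≤ 2 ^ ((k + 2) * (k + 2)) := by
    have h := Nat.pow_le_pow_left (four_le (k + 1) (by omega)) (k + 2)
    rwa [← pow_mul] at h
  have h2 : 2 * 2 ^ ((k + 2) * (k + 2)) = 2 ^ ((k + 2) * (k + 2) + 1) := by
    rw [pow_succ]; ring
  calc 2 * (4 * (k + 1)) ^ (k + 2) ≤ 2 * 2 ^ ((k + 2) * (k + 2)) := Nat.mul_le_mul_left _ h1
    _ = 2 ^ ((k + 2) * (k + 2) + 1) := h2
    _ ≤ _ := Nat.pow_le_pow_right (by norm_num) (by nlinarith)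

theorem LL_le (k : ℕ) : H732.Bags.LL k ≤ 24 * (k + 1) ^ 4 := by
  unfold H732.Bags.LL
  have h : 4 * (k + 1) ^ 2 * ((6 * k + 3) * (k + 1)) ≤ 4 * (k + 1) ^ 2 * ((6 * (k + 1)) * (k + 1)) :=
    Nat.mul_le_mul_left _ (Nat.mul_le_mul_right _ (by omega))
  refine h.trans (le_of_eq ?_)
  ring

theorem one_le_K (k j : ℕ) : 1 ≤ (k + 1) ^ j := Nat.one_le_pow _ _ (by omega)

theorem pow_mono_K (k : ℕ) {i j : ℕ} (h : i ≤ j) : (k + 1) ^ i ≤ (k + 1) ^ j :=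
  Nat.pow_le_pow_right (by omega) h

theorem grid_le (k : ℕ) : (2 * MM k) ^ H732.Bags.LL k ≤ 2 ^ (120 * (k + 1) ^ 6) := by
  have h1 := Nat.pow_le_pow_left (two_MM_le k) (H732.Bags.LL k)
  rw [← pow_mul] at h1
  refine h1.trans (Nat.pow_le_pow_right (by norm_num) ?_)
  refine (Nat.mul_le_mul_left _ (LL_le k)).trans (le_of_eq ?_)
  ring

theorem nC_le (k : ℕ) : nC k (H732.Bags.LL k) (2 * MM k) ≤ 2 ^ (145 * (k + 1) ^ 8) := by
  unfold nC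
  have h1 : (2 * MM k) ^ H732.Bags.LL k + 1 ≤ 2 ^ (121 * (k + 1) ^ 6) := by
    have h2 := grid_le k
    have h3 : 1 ≤ 2 ^ (120 * (k + 1) ^ 6) := Nat.one_le_two_pow
    have h4 : 2 ^ (120 * (k + 1) ^ 6) + 2 ^ (120 * (k + 1) ^ 6) = 2 ^ (120 * (k + 1) ^ 6 + 1) := by
      rw [pow_succ]; ring
    have h5 : 2 ^ (120 * (k + 1) ^ 6 + 1) ≤ 2 ^ (121 * (k + 1) ^ 6) :=
      Nat.pow_le_pow_right (by norm_num) (by have := one_le_K k 6; omega)
    omega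
  have h2 := Nat.pow_le_pow_left h1 (k * k)
  rw [← pow_mul] at h2
  have h3 : 2 ^ (121 * (k + 1) ^ 6 * (k * k)) ≤ 2 ^ (121 * (k + 1) ^ 8) := by
    refine Nat.pow_le_pow_right (by norm_num) ?_
    have h4 : k * k ≤ (k + 1) ^ 2 := by nlinarith
    refine (Nat.mul_le_mul_left _ h4).trans (le_of_eq ?_)
    ring
  have h5 : 2 ^ H732.Bags.LL k ≤ 2 ^ (24 * (k + 1) ^ 8) := by
    refine Nat.pow_le_pow_right (by norm_num) ((LL_le k).trans ?_)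
    exact Nat.mul_le_mul_left _ (pow_mono_K k (by norm_num))
  calc _ ≤ 2 ^ (121 * (k + 1) ^ 8) * 2 ^ (24 * (k + 1) ^ 8) :=
        Nat.mul_le_mul (h2.trans h3) h5
    _ = _ := by rw [← pow_add]; congr 1; ring

theorem W_le (k : ℕ) : W k ≤ 2 ^ (283 * (k + 1) ^ 8) := by
  unfold W WW
  have h1 : MM k ≤ 2 ^ (5 * (k + 1) ^ 2) := le_trans (by omega) (two_MM_le k)
  have h2 : MM k ^ 2 ≤ 2 ^ (10 * (k + 1) ^ 8) := by
    have h := Nat.pow_le_pow_left h1 2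
    rw [← pow_mul] at h
    refine h.trans (Nat.pow_le_pow_right (by norm_num) ?_)
    have := pow_mono_K k (show 2 ≤ 8 by norm_num)
    omega
  have h3 : (2 * MM k) ^ H732.Bags.LL k ≤ 2 ^ (120 * (k + 1) ^ 8) :=
    (grid_le k).trans (Nat.pow_le_pow_right (by norm_num)
      (Nat.mul_le_mul_left _ (pow_mono_K k (by norm_num))))
  have h4 : 192 ≤ 2 ^ (8 * (k + 1) ^ 8) := by
    have h5 : 2 ^ 8 ≤ 2 ^ (8 * (k + 1) ^ 8) :=
      Nat.pow_le_pow_right (by norm_num) (by have := one_le_K k 8; omega)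
    exact le_trans (by norm_num) h5
  calc 192 * MM k ^ 2 * nC k (H732.Bags.LL k) (2 * MM k) * (2 * MM k) ^ H732.Bags.LL k
      ≤ 2 ^ (8 * (k + 1) ^ 8) * 2 ^ (10 * (k + 1) ^ 8) * 2 ^ (145 * (k + 1) ^ 8) *
        2 ^ (120 * (k + 1) ^ 8) :=
        Nat.mul_le_mul (Nat.mul_le_mul (Nat.mul_le_mul h4 h2) (nC_le k)) h3
    _ = _ := by rw [← pow_add, ← pow_add, ← pow_add]; congr 1; ring

theorem total_le (k : ℕ) : 384 * W k * (W k * (4 * (k + 1)) ^ (k + 1)) ^ (k + 1) *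
    36 ^ (2 ^ (k + 1)) ≤ 2 ^ (600 * (k + 1) ^ 9 + 12 * 2 ^ k) := by
  have hK9 := pow_mono_K k (show 8 ≤ 9 by norm_num)
  have h1 : W k ≤ 2 ^ (283 * (k + 1) ^ 9) :=
    (W_le k).trans (Nat.pow_le_pow_right (by norm_num) (Nat.mul_le_mul_left _ hK9))
  have h2 : (4 * (k + 1)) ^ (k + 1) ≤ 2 ^ (2 * (k + 1) ^ 8) := by
    have h := Nat.pow_le_pow_left (four_le (k + 1) (by omega)) (k + 1)
    rw [← pow_mul] at h
    refine h.trans (Nat.pow_le_pow_right (by norm_num) ?_)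
    have h3 := pow_mono_K k (show 2 ≤ 8 by norm_num)
    nlinarith
  have h3 : (W k * (4 * (k + 1)) ^ (k + 1)) ^ (k + 1) ≤ 2 ^ (285 * (k + 1) ^ 9) := by
    have h4 : W k * (4 * (k + 1)) ^ (k + 1) ≤ 2 ^ (285 * (k + 1) ^ 8) := by
      refine (Nat.mul_le_mul (W_le k) h2).trans (le_of_eq ?_)
      rw [← pow_add]; congr 1; ring
    have h5 := Nat.pow_le_pow_left h4 (k + 1)
    rw [← pow_mul] at h5
    have e : 285 * (k + 1) ^ 8 * (k + 1) = 285 * (k + 1) ^ 9 := by ring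
    rwa [e] at h5
  have h4 : 36 ^ (2 ^ (k + 1)) ≤ 2 ^ (12 * 2 ^ k) := by
    have h := Nat.pow_le_pow_left (show 36 ≤ 2 ^ 6 by norm_num) (2 ^ (k + 1))
    rw [← pow_mul] at h
    have e : 6 * 2 ^ (k + 1) = 12 * 2 ^ k := by ring
    rwa [e] at h
  have h5 : 384 ≤ 2 ^ (9 * (k + 1) ^ 9) := by
    have h6 : 2 ^ 9 ≤ 2 ^ (9 * (k + 1) ^ 9) :=
      Nat.pow_le_pow_right (by norm_num) (by have := one_le_K k 9; omega)
    exact le_trans (by norm_num) h6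
  calc _ ≤ 2 ^ (9 * (k + 1) ^ 9) * 2 ^ (283 * (k + 1) ^ 9) * 2 ^ (285 * (k + 1) ^ 9) *
        2 ^ (12 * 2 ^ k) := Nat.mul_le_mul (Nat.mul_le_mul (Nat.mul_le_mul h5 h1) h3) h4
    _ = 2 ^ (577 * (k + 1) ^ 9 + 12 * 2 ^ k) := by
        rw [← pow_add, ← pow_add, ← pow_add]
        have e : 9 * (k + 1) ^ 9 + 283 * (k + 1) ^ 9 + 285 * (k + 1) ^ 9 + 12 * 2 ^ k =
          577 * (k + 1) ^ 9 + 12 * 2 ^ k := by ring
        rw [e]
    _ ≤ _ := Nat.pow_le_pow_right (by norm_num) (by omega)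

/-- **Connected graphs of treewidth at most `k`** embed into `L₁` with distortion at most
`2 ^ (600 (k+1)^9 + 12 * 2^k)`, for all positive edge lengths. -/
theorem tw_explicit (k : ℕ) (V : Type) [Finite V] (G : SimpleGraph V) (hc : G.Connected)
    (hG : TreewidthLE G k) : DistortionLE G (2 ^ (600 * (k + 1) ^ 9 + 12 * 2 ^ k)) := by
  obtain ⟨c, hc0, hT, hle⟩ := exists_target k
  have h1 := distortion_of_target hc0 hT hc hG
  have h2 : 1 / c ≤ (2 : ℝ) ^ (600 * (k + 1) ^ 9 + 12 * 2 ^ k) := by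
    refine hle.trans ?_
    have h3 := total_le k
    exact_mod_cast h3
  intro ℓ hℓ
  obtain ⟨Ω, m, μ, f, hf⟩ := h1 ℓ hℓ
  refine ⟨Ω, m, μ, f, fun x y => ⟨(hf x y).1, (hf x y).2.trans
    (mul_le_mul_of_nonneg_right h2 ?_)⟩⟩
  rcases eq_or_ne x y with e | e
  · rw [e, pd_self hc hℓ]
  · exact (pd_pos hc hℓ e).le

end Vale.Agent.P235.H483U
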