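import Vale.Agent.P235.H134.Grid.Assembly
import Vale.Agent.P235.H134.Grid.BipRow
import Vale.Agent.P235.H154.GridMenger
import Vale.Agent.P235.H154.GridCore
import Vale.Agent.P235.H156.Clique
import Vale.Agent.P235.H250.GridSplit
import Vale.Agent.P235.H469.GridOfSeg
import Vale.Agent.P235.H949.MeshFinal
import Vale.Agent.P235.Comp.Core
import Vale.Agent.P235.R2.H483U.Final

/-!
P235, graphs without a grid minor with an explicit constant.
-/

namespace Vale.Agent.P235.H483U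

open SimpleGraph Vale.Agent.P235.H134 Vale.Agent.P235.H156

/-- the number of pairs -/
def gs (r : ℕ) : ℕ := Fintype.card {e : Fin (r * r) × Fin (r * r) // e.1 < e.2}

/-- the number of segments -/
def gd (r : ℕ) : ℕ := r * r * (r * (r - 1)) ^ r

/-- the factor of one step -/
def gc (r : ℕ) : ℕ := 2 * (gs r + 1) * gd r * gd r + 4 * (r * (r - 1) + 1)

/-- the size of the mesh -/
def gk (r : ℕ) : ℕ := (gc r * gc r) ^ gs r

/-- the treewidth -/
def gw (r : ℕ) : ℕ := (r * r + 1) * (2 * gk r) + gk r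

theorem gc_pos (r : ℕ) : 0 < gc r := by unfold gc; positivity

theorem gk_pos (r : ℕ) : 1 ≤ gk r :=
  Nat.one_le_iff_ne_zero.mpr (pow_ne_zero _ (Nat.mul_ne_zero (gc_pos r).ne' (gc_pos r).ne'))

/-- Grid or clique with explicit numbers. -/
theorem gridOrClique_exp (hBip : BipStmt) (hCore : CoreStmt) (hEx : ExtractStmt)
    (hCl : CliqueStmt) (hGrid : GridStmt) (r : ℕ) (hr : 2 ≤ r) (V : Type) [Finite V]
    (G : SimpleGraph V) (hM : HasMesh G (gk r) (r * r)) :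
    IsMinor (grid r) G ∨ IsMinor (⊤ : SimpleGraph (Fin (r * r))) G := by
  classical
  obtain ⟨q, hqd⟩ : ∃ q, q = r * (r - 1) := ⟨_, rfl⟩
  have hq : 1 ≤ q := by
    rw [hqd]
    exact Nat.mul_pos (by omega) (by omega)
  have hd : 1 ≤ gd r := by
    unfold gd
    rw [← hqd]
    exact Nat.mul_pos (Nat.mul_pos (by omega) (by omega)) (pow_pos hq r)
  have hc : 2 * (gs r + 1) * gd r * gd r + 4 * (q + 1) = gc r := by rw [hqd]; rfl
  obtain ⟨C, S, A, hSC, hSS, hSc, hAS, hP⟩ := hM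
  choose P hP1 hP2 using hP
  have hAA : ∀ i j, i ≠ j → Disjoint (A i) (A j) := fun i j hij =>
    (hSS i j hij).mono (hAS i) (hAS j)
  rcases claim hBip hCore hEx G (ι := {e : Fin (r * r) × Fin (r * r) // e.1 < e.2})
    (fun e => A e.1.1) (fun e => A e.1.2) C (fun e => hAA _ _ e.2.ne) q (gd r) (gc r) (gs r) hq hd
    hc.le Finset.univ (by rw [Finset.card_univ]; exact le_rfl) Set.univ (gk r)
    (by rw [Finset.card_univ]; exact le_rfl) (fun e => P e.1.1 e.1.2 e.2.ne)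
    (fun e _ => ⟨hP1 e.1.1 e.1.2 e.2.ne, hP2 e.1.1 e.1.2 e.2.ne, fun a => Set.subset_univ _⟩) with
    h | ⟨p, hp1, hp2⟩
  · left
    rw [hqd] at h
    exact hGrid r hr V G (gd r) le_rfl h
  · right
    have hne : ∀ i, ∃ v : V, v ∈ S i := fun i => by
      obtain ⟨v⟩ := (hSc i).nonempty
      exact ⟨v.1, v.2⟩
    choose v hv using hne
    refine hCl V G (r * r) C S A hSC hSS hSc hAS
      (fun i j => if h : i < j then p ⟨(i, j), h⟩ else triv G (v i)) ?_ ?_ ?_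
    · intro i j hij
      rw [dif_pos hij]
      exact (hp1 ⟨(i, j), hij⟩ (Finset.mem_univ _)).1
    · intro i j hij
      rw [dif_pos hij]
      exact (hp1 ⟨(i, j), hij⟩ (Finset.mem_univ _)).2.1
    · intro i j i' j' hij hij' hne
      rw [dif_pos hij, dif_pos hij']
      exact hp2 _ (Finset.mem_univ _) _ (Finset.mem_univ _)
        (fun h => hne (congrArg Subtype.val h))

/-- The excluded grid theorem with an explicit number. -/
theorem grid_exp (r : ℕ) (hr : 2 ≤ r) (V : Type) [Finite V] (G : SimpleGraph V)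
    (hG : G.Connected) (hw : ¬ TreewidthLE G (gw r)) : IsMinor (grid r) G := by
  have hk := gk_pos r
  have h1 : gk r ≤ (r * r + 1) * (2 * gk r) := by nlinarith
  have h2 := H250.split (gk r) (r * r) hk V G (H949.mesh H154.mengerStmt (gk r) _ hk h1 V G hG hw)
  rcases gridOrClique_exp bip H154.coreStmt extract clique H469.gridOfSegments r hr V G h2 with
    h3 | h3
  · exact h3
  · exact grid_of_clique r h3

theorem gs_le (r : ℕ) : gs r ≤ r ^ 4 := by
  unfold gs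
  refine (Fintype.card_subtype_le _).trans (le_of_eq ?_)
  rw [Fintype.card_prod, Fintype.card_fin]
  ring

theorem gd_le (r : ℕ) : gd r ≤ r ^ (2 * r + 2) := by
  unfold gd
  have h1 : r * (r - 1) ≤ r ^ 2 := by
    rw [pow_two]
    exact Nat.mul_le_mul_left _ (Nat.sub_le _ _)
  have h2 := Nat.pow_le_pow_left h1 r
  rw [← pow_mul] at h2
  calc r * r * (r * (r - 1)) ^ r ≤ r * r * r ^ (2 * r) := Nat.mul_le_mul_left _ h2
    _ = _ := by rw [pow_add]; ring

theorem gc_le (r : ℕ) (hr : 2 ≤ r) : gc r ≤ r ^ (4 * r + 11) := by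
  unfold gc
  have hr4 : 16 ≤ r ^ 4 := Nat.pow_le_pow_left hr 4
  have h1 : 2 * (gs r + 1) ≤ r ^ 6 := by
    have h := gs_le r
    have h2 : r ^ 6 = r ^ 4 * r ^ 2 := by rw [← pow_add]
    have h3 : 4 ≤ r ^ 2 := Nat.pow_le_pow_left hr 2
    have h4 : r ^ 4 * 4 ≤ r ^ 4 * r ^ 2 := Nat.mul_le_mul_left _ h3
    omega
  have h2 : 2 * (gs r + 1) * gd r * gd r ≤ r ^ (4 * r + 10) := by
    calc 2 * (gs r + 1) * gd r * gd r ≤ r ^ 6 * r ^ (2 * r + 2) * r ^ (2 * r + 2) :=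
          Nat.mul_le_mul (Nat.mul_le_mul h1 (gd_le r)) (gd_le r)
      _ = _ := by rw [← pow_add, ← pow_add]; congr 1; ring
  have h3 : 4 * (r * (r - 1) + 1) ≤ r ^ (4 * r + 10) := by
    have h4 : r * (r - 1) + 1 ≤ r * r := by
      obtain ⟨j, rfl⟩ : ∃ j, r = j + 1 := ⟨r - 1, by omega⟩
      rw [Nat.add_sub_cancel]
      nlinarith
    have h5 : 4 * (r * r) ≤ r ^ 4 := by
      have h6 : 4 ≤ r * r := by nlinarith
      calc 4 * (r * r) ≤ (r * r) * (r * r) := Nat.mul_le_mul_right _ h6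
        _ = _ := by ring
    have h7 : r ^ 4 ≤ r ^ (4 * r + 10) := Nat.pow_le_pow_right (by omega) (by omega)
    omega
  have h4 : 2 * r ^ (4 * r + 10) ≤ r ^ (4 * r + 11) := by
    rw [show 4 * r + 11 = 4 * r + 10 + 1 by ring, pow_succ, mul_comm]
    exact Nat.mul_le_mul_left _ hr
  omega

theorem gk_le (r : ℕ) (hr : 2 ≤ r) : gk r ≤ r ^ (19 * r ^ 5) := by
  unfold gk
  have h1 : gc r * gc r ≤ r ^ (8 * r + 22) := by
    refine (Nat.mul_le_mul (gc_le r hr) (gc_le r hr)).trans (le_of_eq ?_)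
    rw [← pow_add]; congr 1; ring
  calc (gc r * gc r) ^ gs r ≤ (r ^ (8 * r + 22)) ^ gs r := Nat.pow_le_pow_left h1 _
    _ ≤ (r ^ (8 * r + 22)) ^ (r ^ 4) :=
        Nat.pow_le_pow_right (pow_pos (by omega) _) (gs_le r)
    _ = r ^ ((8 * r + 22) * r ^ 4) := by rw [← pow_mul]
    _ ≤ _ := by
        refine Nat.pow_le_pow_right (by omega) ?_
        calc (8 * r + 22) * r ^ 4 ≤ (19 * r) * r ^ 4 := Nat.mul_le_mul_right _ (by omega)
          _ = _ := by ring

theorem gw_le (r : ℕ) (hr : 2 ≤ r) : gw r + 1 ≤ r ^ (20 * r ^ 5) := by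
  have hk := gk_le r hr
  have hk1 := gk_pos r
  have h1 : gw r + 1 ≤ gk r * r ^ 4 := by
    unfold gw
    have h2 : 2 * (r * r) + 4 ≤ r ^ 4 := by
      have h6 : 4 ≤ r * r := by nlinarith
      have : r ^ 4 = (r * r) * (r * r) := by ring
      rw [this]
      nlinarith
    calc (r * r + 1) * (2 * gk r) + gk r + 1 ≤ (r * r + 1) * (2 * gk r) + gk r + gk r := by omega
      _ = gk r * (2 * (r * r) + 4) := by ring
      _ ≤ _ := Nat.mul_le_mul_left _ h2
  have h3 : r ^ 4 ≤ r ^ (r ^ 5) := by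
    refine Nat.pow_le_pow_right (by omega) ?_
    have h7 : 2 ^ 5 ≤ r ^ 5 := Nat.pow_le_pow_left hr 5
    omega
  calc gw r + 1 ≤ gk r * r ^ 4 := h1
    _ ≤ r ^ (19 * r ^ 5) * r ^ (r ^ 5) := Nat.mul_le_mul hk h3
    _ = _ := by rw [← pow_add]; congr 1; ring

theorem gtot_le (r : ℕ) (hr : 2 ≤ r) :
    600 * (gw r + 1) ^ 9 + 12 * 2 ^ gw r ≤ 2 ^ (r ^ (21 * r ^ 5)) := by
  have hw := gw_le r hr
  have h5 : 32 ≤ r ^ 5 := Nat.pow_le_pow_left hr 5
  obtain ⟨K, hK⟩ : ∃ K, K = r ^ (20 * r ^ 5) := ⟨_, rfl⟩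
  rw [← hK] at hw
  have h1 : K ≤ 2 ^ (20 * r ^ 6) := by
    rw [hK]
    calc r ^ (20 * r ^ 5) ≤ (2 ^ r) ^ (20 * r ^ 5) :=
          Nat.pow_le_pow_left (Nat.lt_two_pow_self).le _
      _ = _ := by rw [← pow_mul]; congr 1; ring
  have h2 : 180 * r ^ 6 + 10 ≤ K := by
    have h3 : r ^ 14 ≤ K := by
      rw [hK]
      exact Nat.pow_le_pow_right (by omega) (by omega)
    have h4 : r ^ 14 = r ^ 8 * r ^ 6 := by rw [← pow_add]
    have h6 : 2 ^ 8 ≤ r ^ 8 := Nat.pow_le_pow_left hr 8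
    have h7 : 2 ^ 6 ≤ r ^ 6 := Nat.pow_le_pow_left hr 6
    have h8 : 2 ^ 8 * r ^ 6 ≤ r ^ 8 * r ^ 6 := Nat.mul_le_mul_right _ h6
    omega
  have h3 : 600 * (gw r + 1) ^ 9 ≤ 2 ^ K := by
    calc 600 * (gw r + 1) ^ 9 ≤ 2 ^ 10 * (2 ^ (20 * r ^ 6)) ^ 9 :=
          Nat.mul_le_mul (by norm_num) (Nat.pow_le_pow_left (hw.trans h1) 9)
      _ = 2 ^ (180 * r ^ 6 + 10) := by rw [← pow_mul, ← pow_add]; congr 1; ring
      _ ≤ _ := Nat.pow_le_pow_right (by norm_num) h2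
  have h4 : 2 * 2 ^ gw r ≤ 2 ^ K := by
    rw [mul_comm, ← pow_succ]
    exact Nat.pow_le_pow_right (by norm_num) hw
  have h6 : K + 3 ≤ r ^ (21 * r ^ 5) := by
    have h7 : r ^ (21 * r ^ 5) = K * r ^ (r ^ 5) := by rw [hK, ← pow_add]; congr 1; ring
    have h8 : 2 ≤ r ^ (r ^ 5) := by
      calc 2 ≤ r := hr
        _ = r ^ 1 := (pow_one r).symm
        _ ≤ _ := Nat.pow_le_pow_right (by omega) (by omega)
    have h9 : K * 2 ≤ K * r ^ (r ^ 5) := Nat.mul_le_mul_left _ h8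
    have h10 : 0 < r ^ 6 := by positivity
    omega
  have h7 : 2 ^ (K + 3) ≤ 2 ^ (r ^ (21 * r ^ 5)) := Nat.pow_le_pow_right (by norm_num) h6
  have h8 : 2 ^ (K + 3) = 8 * 2 ^ K := by rw [pow_add]; ring
  omega

/-- Graphs without a grid minor: an explicit constant. -/
theorem gridfree_explicit (r : ℕ) (V : Type) [Finite V] (G : SimpleGraph V) (hG : G.Connected)
    (hn : ¬ IsMinor (grid r) G) : DistortionLE G (2 ^ (2 ^ (r ^ (21 * r ^ 5)))) := by
  rcases Nat.lt_or_ge r 2 with hr | hr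
  · exact absurd (grid_small hG r hr) hn
  have h1 : TreewidthLE G (gw r) := by
    by_contra h
    exact hn (grid_exp r hr V G hG h)
  have h2 := tw_explicit (gw r) V G hG h1
  refine DistortionLE.mono h2 ?_
  exact pow_le_pow_right₀ (by norm_num) (gtot_le r hr)

end Vale.Agent.P235.H483U
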