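import Vale.Agent.P235.R2.H483U.Step

/-!
P235, bounded treewidth, process row (P3), part 3: the invariants of one transition: the class DD
after the injections, the order on the adhesion, the mass of the events, anticoncentration.
-/

namespace Vale.Agent.P235.H483U

open Finset Vale.Agent.P235.H65 Vale.Agent.P235.H265

namespace St

variable {V : Type} {k L m : ℕ} {S : St V k L m}
variable {u : ℝ} {Sl : Finset (Fin L)} {e : Fin k → V} {β : ℝ} {η' : Fin L → V → ℝ}

theorem isLaw_P (hm : 0 < m) (hw : ∀ c, 0 ≤ S.w c) (h1 : ∑ c, S.w c = 1) : IsLaw S.P :=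
  ⟨S.P_nonneg hw, S.sum_P hm h1⟩

theorem nextG_insert {T : Finset (Fin L)} {j : Fin L} (hj : j ∉ T) (o : Om k L m) (v : V) :
    S.nextG u Sl e β η' (insert j T) o v = S.nextG u Sl e β η' T o v +
      (if β ≤ S.w' u Sl e o.1 then gv m u (o.2 j) * η' j v else 0) := by
  unfold nextG
  rw [Finset.sum_insert hj]
  ring

theorem nextG_update {T : Finset (Fin L)} {j : Fin L} (hj : j ∉ T) (hjS : j ∈ Sl) (c : Cell k L m)
    (x : Fin L → Fin m) (s : Fin m) (v : V) :
    S.nextG u Sl e β η' T (c, Function.update x j s) v = S.nextG u Sl e β η' T (c, x) v := by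
  unfold nextG
  dsimp only
  congr 1
  · congr 1
    refine sum_congr rfl fun i hi => ?_
    have : i ≠ j := fun h => (mem_sdiff.mp hi).2 (h ▸ hjS)
    rw [Function.update_of_ne this]
  · refine sum_congr rfl fun i hi => ?_
    have : i ≠ j := fun h => hj (h ▸ hi)
    rw [Function.update_of_ne this]

/-- **class DD after the injections** -/
theorem dd_next (hm : 2 ≤ m) (hw : ∀ c, 0 ≤ S.w c) (h1 : ∑ c, S.w c = 1) {d : V → V → ℝ}
    (hd : ∀ p q, 0 ≤ d p q) (hu : 0 ≤ u) (hβ : 4 * u ≤ β * ((m : ℝ) ^ L)⁻¹)
    (hη : ∀ j ∈ Sl, ∀ p q, |η' j p - η' j q| ≤ d p q) (hg : DD S.P d (S.g u)) :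
    DD (S.next u Sl e β η').P d ((S.next u Sl e β η').g u) := by
  classical
  have hm0 : 0 < m := by omega
  have hmR : (0 : ℝ) < m := by exact_mod_cast hm0
  have key : ∀ T : Finset (Fin L), T ⊆ Sl →
      DD (S.next u Sl e β η').P d (S.nextG u Sl e β η' T) := by
    intro T
    induction T using Finset.induction_on with
    | empty => intro _; exact S.dd0 hm0 hw hg
    | @insert j T hj ih =>
      intro hT
      have hjS : j ∈ Sl := hT (mem_insert_self j T)
      have ih' := ih fun i hi => hT (mem_insert_of_mem hi)
      have hlaw : IsLaw (S.next u Sl e β η').P :=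
        isLaw_P hm0 (fun c => S.w'_nonneg hw c) (S.sum_w' hm0 h1)
      have hR : IsLaw (fun _ : Fin m => (m : ℝ)⁻¹) := by
        refine ⟨fun _ => by positivity, ?_⟩
        rw [Finset.sum_const, Finset.card_univ, Fintype.card_fin, nsmul_eq_mul]
        exact mul_inv_cancel₀ hmR.ne'
      have hx0 : ∑ s : Fin m, (m : ℝ)⁻¹ * gv m u s = 0 := by
        rw [← Finset.mul_sum, gv_sum hm, mul_zero]
      have hinj := DD.inject hlaw hR hd ih' (gv m u) hx0 hu (gv_abs hm hu) hβ
        (fun o => β ≤ S.w' u Sl e o.1)
        (fun o ho => mul_le_mul_of_nonneg_right ho (by positivity)) (η' j) (hη j hjS)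
      intro p q t
      refine le_trans (le_of_eq ?_) (hinj p q t)
      dsimp only
      have e1 := Fintype.sum_prod_type (f := fun o : Om k L m => (S.next u Sl e β η').P o *
        |S.nextG u Sl e β η' (insert j T) o p - S.nextG u Sl e β η' (insert j T) o q - t|)
      have e2 := Fintype.sum_prod_type (f := fun x : Om k L m × Fin m =>
        (S.next u Sl e β η').P x.1 * (m : ℝ)⁻¹ *
        |S.nextG u Sl e β η' T x.1 p + (if β ≤ S.w' u Sl e x.1.1 then gv m u x.2 * η' j p else 0) -
          (S.nextG u Sl e β η' T x.1 q +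
            if β ≤ S.w' u Sl e x.1.1 then gv m u x.2 * η' j q else 0) - t|)
      have e3 := Fintype.sum_prod_type (f := fun o : Om k L m => ∑ s : Fin m,
        (S.next u Sl e β η').P o * (m : ℝ)⁻¹ *
        |S.nextG u Sl e β η' T o p + (if β ≤ S.w' u Sl e o.1 then gv m u s * η' j p else 0) -
          (S.nextG u Sl e β η' T o q +
            if β ≤ S.w' u Sl e o.1 then gv m u s * η' j q else 0) - t|)
      rw [e1, e2, e3]
      refine sum_congr rfl fun c _ => ?_
      let f : (Fin L → Fin m) → ℝ := fun x => (S.next u Sl e β η').P (c, x) *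
        |S.nextG u Sl e β η' (insert j T) (c, x) p - S.nextG u Sl e β η' (insert j T) (c, x) q - t|
      have hs := sum_update (T := Fin m) j f
      rw [Fintype.card_fin] at hs
      have h2 : ∑ x, f x = (m : ℝ)⁻¹ * ∑ x, ∑ s : Fin m, f (Function.update x j s) := by
        rw [hs, ← mul_assoc, inv_mul_cancel₀ hmR.ne', one_mul]
      change ∑ x, f x = _
      rw [h2, Finset.mul_sum]
      refine sum_congr rfl fun x _ => ?_
      rw [Finset.mul_sum]
      refine sum_congr rfl fun s _ => ?_
      simp only [f]
      rw [nextG_insert hj, nextG_insert hj, nextG_update hj hjS, nextG_update hj hjS]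
      have hP : (S.next u Sl e β η').P (c, Function.update x j s) =
          (S.next u Sl e β η').P (c, x) := rfl
      rw [hP]
      dsimp only
      rw [Function.update_self]
      ring
  have h := key Sl (Finset.Subset.refl _)
  intro p q t
  have := h p q t
  simp only [← next_g] at this
  exact this

/-- **conditional expectation** on the adhesion -/
theorem ce (hw : ∀ c, 0 ≤ S.w c) {v : V} (hv : ∀ j ∈ Sl, η' j v = 0) (o' : Om k L m) :
    ∑ o, S.Q u Sl e o o' * S.g u o v =
      (S.next u Sl e β η').P o' * (S.next u Sl e β η').g u o' v := by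
  classical
  rw [S.ce0 (β := β) (η' := η') hw v o', next_g]
  congr 1
  unfold nextG
  rw [Finset.sum_empty, add_zero]
  symm
  rw [add_eq_left]
  refine sum_eq_zero fun j hj => ?_
  rw [hv j hj, mul_zero, ite_self]

/-- environments with the same signature have the same order patterns -/
theorem pat_eq {o1 o2 : Om k L m} (h : S.sig u Sl e o1 = S.sig u Sl e o2) (a b : Fin k) :
    S.pat u Sl e o1 a b = S.pat u Sl e o2 a b := by
  classical
  have hH : ∀ j, S.H j o1.1 = S.H j o2.1 := fun j => congrFun (congrArg Prod.snd h) j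
  have hc : (S.pat u Sl e o1 a b).card = (S.pat u Sl e o2 a b).card := by
    have h1 := congrFun (congrFun (congrArg Prod.fst h) a) b
    exact congrArg Fin.val h1
  have hs : ∀ y : Fin L → Fin m, ∀ v : V,
      (∑ j ∈ univ \ Sl, (if S.H j o1.1 = true then gv m u (y j) * S.η j v else 0)) =
        ∑ j ∈ univ \ Sl, (if S.H j o2.1 = true then gv m u (y j) * S.η j v else 0) := by
    intro y v
    refine sum_congr rfl fun j _ => ?_
    rw [hH j]
  rcases le_total (S.g1 u Sl o1 (e a) - S.g1 u Sl o1 (e b))
      (S.g1 u Sl o2 (e a) - S.g1 u Sl o2 (e b)) with h2 | h2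
  · symm
    refine Finset.eq_of_subset_of_card_le (fun y hy => ?_) hc.le
    unfold pat at hy ⊢
    rw [mem_filter] at hy ⊢
    refine ⟨mem_univ _, ?_⟩
    have h3 := hy.2
    rw [g_mix, g_mix] at h3 ⊢
    rw [hs y (e a), hs y (e b)]
    linarith
  · refine Finset.eq_of_subset_of_card_le (fun y hy => ?_) hc.ge
    unfold pat at hy ⊢
    rw [mem_filter] at hy ⊢
    refine ⟨mem_univ _, ?_⟩
    have h3 := hy.2
    rw [g_mix, g_mix] at h3 ⊢
    rw [← hs y (e a), ← hs y (e b)]
    linarith

/-- the signature contains the order -/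
theorem Q_ne_zero {o o' : Om k L m} (h : S.Q u Sl e o o' ≠ 0) (a b : Fin k) :
    S.g u o (e a) ≤ S.g u o (e b) ↔ o'.2 ∈ S.pat u Sl e o a b := by
  classical
  unfold Q at h
  by_cases hc : S.sig u Sl e o = o'.1
  · rw [if_pos hc] at h
    have h2 : ∃ z : Fin L → Fin m, mix Sl z o.2 = o'.2 := by
      by_contra hne
      simp only [not_exists] at hne
      apply h
      have : ∑ z : Fin L → Fin m, (if mix Sl z o.2 = o'.2 then (1 : ℝ) else 0) = 0 :=
        sum_eq_zero fun z _ => if_neg (hne z)
      rw [this, mul_zero, mul_zero]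
    obtain ⟨z, hz⟩ := h2
    unfold pat
    rw [mem_filter]
    have h3 : mix Sl o.2 o'.2 = o.2 := by
      rw [← hz, mix_mix_right, mix_self]
    rw [h3]
    simp
  · rw [if_neg hc] at h
    exact absurd rfl h

theorem Q_sig {o o' : Om k L m} (h : S.Q u Sl e o o' ≠ 0) : S.sig u Sl e o = o'.1 := by
  classical
  by_contra hc
  apply h
  unfold Q
  rw [if_neg hc]

/-- **order** on the adhesion -/
theorem ord (hw : ∀ c, 0 ≤ S.w c) {a b : V} (ha : ∀ j ∈ Sl, η' j a = 0)
    (hb : ∀ j ∈ Sl, η' j b = 0) (hea : ∃ i, e i = a) (heb : ∃ i, e i = b) {o o' : Om k L m}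
    (h : S.Q u Sl e o o' ≠ 0) :
    S.g u o a ≤ S.g u o b ↔ (S.next u Sl e β η').g u o' a ≤ (S.next u Sl e β η').g u o' b := by
  obtain ⟨i, rfl⟩ := hea
  obtain ⟨i', rfl⟩ := heb
  have hP : (S.next u Sl e β η').P o' ≠ 0 := by
    intro h0
    rw [← S.sum_Q_snd (u := u) (Sl := Sl) (e := e)] at h0
    have := (sum_eq_zero_iff_of_nonneg fun o _ => S.Q_nonneg (u := u) (Sl := Sl) (e := e) hw o o').mp
      h0 o (mem_univ o)
    exact h this
  rw [Q_ne_zero h i i']
  symm
  refine ord_joint (S.Q u Sl e) (S.Q_nonneg hw) (fun o' => S.sum_Q_snd (β := β) (η' := η') o')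
    (a := fun o => S.g u o (e i)) (b := fun o => S.g u o (e i'))
    (a' := fun o' => (S.next u Sl e β η').g u o' (e i))
    (b' := fun o' => (S.next u Sl e β η').g u o' (e i'))
    (fun o' => S.ce hw ha o') (fun o' => S.ce hw hb o')
    (fun o2 ho => ?_) hP
  rw [Q_ne_zero ho i i', pat_eq ((Q_sig ho).trans (Q_sig h).symm) i i']

/-- the mass of the complement of an event -/
noncomputable def bad (S : St V k L m) (j : Fin L) : ℝ :=
  ∑ c, if S.H j c = true then 0 else S.w c

theorem bad_next_mem {j : Fin L} (hj : j ∈ Sl) {Nc : ℝ} (hβ : 0 ≤ β)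
    (hN : (Fintype.card (Cell k L m) : ℝ) ≤ Nc) : (S.next u Sl e β η').bad j ≤ Nc * β := by
  classical
  unfold bad
  have h1 : ∀ c ∈ (univ : Finset (Cell k L m)),
      (if (S.next u Sl e β η').H j c = true then 0 else (S.next u Sl e β η').w c) ≤ β := by
    intro c _
    by_cases h : (S.next u Sl e β η').H j c = true
    · rw [if_pos h]
      exact hβ
    · rw [if_neg h]
      have h2 : ¬ β ≤ S.w' u Sl e c := by
        intro hle
        apply h
        change (if j ∈ Sl then decide (β ≤ S.w' u Sl e c) else c.2 j) = true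
        rw [if_pos hj]
        exact decide_eq_true hle
      exact (not_le.mp h2).le
  refine (sum_le_card_nsmul _ _ _ h1).trans ?_
  rw [nsmul_eq_mul, Finset.card_univ]
  exact mul_le_mul_of_nonneg_right hN hβ

theorem bad_next_notMem (hm : 0 < m) {j : Fin L} (hj : j ∉ Sl) :
    (S.next u Sl e β η').bad j = S.bad j := by
  classical
  unfold bad
  have h1 : ∀ c : Cell k L m,
      (if (S.next u Sl e β η').H j c = true then 0 else (S.next u Sl e β η').w c) =
        ∑ o, if S.sig u Sl e o = c then (if S.H j o.1 = true then 0 else S.P o) else 0 := by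
    intro c
    have hH : (S.next u Sl e β η').H j c = c.2 j := if_neg hj
    by_cases h : c.2 j = true
    · rw [if_pos (hH.trans h)]
      symm
      refine sum_eq_zero fun o _ => ?_
      split_ifs with h2 h3
      · rfl
      · exfalso
        apply h3
        rw [← h, ← h2]
        rfl
      · rfl
    · rw [if_neg (fun h' => h (hH.symm.trans h'))]
      change S.w' u Sl e c = _
      unfold w'
      refine sum_congr rfl fun o _ => ?_
      split_ifs with h2 h3
      · exfalso
        apply h
        rw [← h3, ← h2]
        rfl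
      · rfl
      · rfl
  simp_rw [h1]
  rw [Finset.sum_comm]
  have h2 : ∀ o : Om k L m, ∑ c, (if S.sig u Sl e o = c then
      (if S.H j o.1 = true then 0 else S.P o) else 0) = (if S.H j o.1 = true then 0 else S.P o) := by
    intro o
    rw [Finset.sum_ite_eq]; simp
  simp_rw [h2]
  rw [Fintype.sum_prod_type]
  refine sum_congr rfl fun c _ => ?_
  dsimp only
  split_ifs with h3
  · simp
  · unfold P
    dsimp only
    have := card_inv (L := L) hm
    rw [Finset.mul_sum] at this
    simp only [mul_one] at this
    rw [← Finset.mul_sum, this, mul_one]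

/-- **anticoncentration** -/
theorem anti (hm : 2 ≤ m) (hw : ∀ c, 0 ≤ S.w c) (h1 : ∑ c, S.w c = 1) (hu : 0 ≤ u) {p q : V}
    {D c1 : ℝ} {j : Fin L} (hc : c1 * D ≤ |S.η j p - S.η j q|) :
    ∑ o, (if |S.g u o p - S.g u o q| < c1 * u / ((m : ℝ) - 1) * D then S.P o else 0) ≤
      S.bad j + (m : ℝ)⁻¹ := by
  classical
  have hm0 : 0 < m := by omega
  have hmR : (0 : ℝ) < m := by exact_mod_cast hm0
  have hm1 : (0 : ℝ) < (m : ℝ) - 1 := by
    have : (2 : ℝ) ≤ m := by exact_mod_cast hm
    linarith
  set r : ℝ := c1 * u / ((m : ℝ) - 1) * D with hr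
  -- per cell
  have hcell : ∀ c : Cell k L m, ∑ x : Fin L → Fin m,
      (if |S.g u (c, x) p - S.g u (c, x) q| < r then S.P (c, x) else 0) ≤
        (if S.H j c = true then 0 else S.w c) + S.w c * (m : ℝ)⁻¹ := by
    intro c
    have hci := card_inv (L := L) hm0
    rw [Finset.mul_sum] at hci
    simp only [mul_one] at hci
    by_cases hH : S.H j c = true
    · rw [if_pos hH, zero_add]
      -- average over the coordinate `j`
      let f : (Fin L → Fin m) → ℝ := fun x =>
        if |S.g u (c, x) p - S.g u (c, x) q| < r then S.P (c, x) else 0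
      have hs := sum_update (T := Fin m) j f
      rw [Fintype.card_fin] at hs
      have h2 : ∑ x, f x = (m : ℝ)⁻¹ * ∑ x, ∑ s : Fin m, f (Function.update x j s) := by
        rw [hs, ← mul_assoc, inv_mul_cancel₀ hmR.ne', one_mul]
      change ∑ x, f x ≤ _
      rw [h2, mul_comm (S.w c)]
      refine mul_le_mul_of_nonneg_left ?_ (by positivity)
      have h3 : ∀ x : Fin L → Fin m, ∑ s : Fin m, f (Function.update x j s) ≤
          S.w c * ((m : ℝ) ^ L)⁻¹ := by
        intro x
        -- at most one value of `s` is bad
        have hsplit : ∀ s : Fin m, ∀ v : V, S.g u (c, Function.update x j s) v =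
            (S.G c v + ∑ i ∈ univ.erase j,
              (if S.H i c = true then gv m u (x i) * S.η i v else 0)) + gv m u s * S.η j v := by
          intro s v
          unfold g
          dsimp only
          rw [← Finset.sum_erase_add _ _ (mem_univ j), if_pos hH, Function.update_self, add_assoc]
          congr 2
          refine sum_congr rfl fun i hi => ?_
          rw [Function.update_of_ne (ne_of_mem_erase hi)]
        have hone : ∀ s s' : Fin m,
            |S.g u (c, Function.update x j s) p - S.g u (c, Function.update x j s) q| < r →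
            |S.g u (c, Function.update x j s') p - S.g u (c, Function.update x j s') q| < r →
            s = s' := by
          intro s s' hs1 hs2
          by_contra hne
          have hgap := gv_gap hm hu hne
          rw [hsplit s p, hsplit s q] at hs1
          rw [hsplit s' p, hsplit s' q] at hs2
          have h4 : |(gv m u s - gv m u s') * (S.η j p - S.η j q)| < 2 * r := by
            have e1 : (gv m u s - gv m u s') * (S.η j p - S.η j q) =
                ((S.G c p + ∑ i ∈ univ.erase j,
                  (if S.H i c = true then gv m u (x i) * S.η i p else 0)) + gv m u s * S.η j p -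
                ((S.G c q + ∑ i ∈ univ.erase j,
                  (if S.H i c = true then gv m u (x i) * S.η i q else 0)) + gv m u s * S.η j q)) -
                ((S.G c p + ∑ i ∈ univ.erase j,
                  (if S.H i c = true then gv m u (x i) * S.η i p else 0)) + gv m u s' * S.η j p -
                ((S.G c q + ∑ i ∈ univ.erase j,
                  (if S.H i c = true then gv m u (x i) * S.η i q else 0)) + gv m u s' * S.η j q)) := by
              ring
            rw [e1]
            refine (abs_sub _ _).trans_lt ?_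
            linarith
          rw [abs_mul] at h4
          have hr0 : 0 ≤ r := (abs_nonneg _).trans hs1.le
          have h5 : 2 * r ≤ |gv m u s - gv m u s'| * |S.η j p - S.η j q| := by
            have e2 : 2 * r = 2 * u / ((m : ℝ) - 1) * (c1 * D) := by
              rw [hr]; field_simp
            rw [e2]
            calc 2 * u / ((m : ℝ) - 1) * (c1 * D)
                ≤ 2 * u / ((m : ℝ) - 1) * |S.η j p - S.η j q| :=
                  mul_le_mul_of_nonneg_left hc (by positivity)
              _ ≤ _ := mul_le_mul_of_nonneg_right hgap (abs_nonneg _)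
          linarith
        by_cases hex : ∃ s₀ : Fin m,
            |S.g u (c, Function.update x j s₀) p - S.g u (c, Function.update x j s₀) q| < r
        · obtain ⟨s₀, hs₀⟩ := hex
          have : ∑ s : Fin m, f (Function.update x j s) = f (Function.update x j s₀) := by
            refine Fintype.sum_eq_single s₀ fun s hs => ?_
            simp only [f]
            rw [if_neg]
            intro hlt
            exact hs (hone s s₀ hlt hs₀)
          rw [this]
          simp only [f]
          rw [if_pos hs₀]
          exact le_rfl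
        · have : ∑ s : Fin m, f (Function.update x j s) = 0 := by
            refine sum_eq_zero fun s _ => ?_
            simp only [f]
            rw [if_neg]
            intro hlt
            exact hex ⟨s, hlt⟩
          rw [this]
          exact mul_nonneg (hw c) (by positivity)
      calc ∑ x, ∑ s : Fin m, f (Function.update x j s)
          ≤ ∑ _x : Fin L → Fin m, S.w c * ((m : ℝ) ^ L)⁻¹ := sum_le_sum fun x _ => h3 x
        _ = S.w c := by rw [← Finset.mul_sum, hci, mul_one]
    · rw [if_neg hH]
      have h2 : ∑ x : Fin L → Fin m,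
          (if |S.g u (c, x) p - S.g u (c, x) q| < r then S.P (c, x) else 0) ≤
          ∑ _x : Fin L → Fin m, S.w c * ((m : ℝ) ^ L)⁻¹ := by
        refine sum_le_sum fun x _ => ?_
        split_ifs
        · exact le_rfl
        · exact mul_nonneg (hw c) (by positivity)
      rw [← Finset.mul_sum, hci, mul_one] at h2
      have : 0 ≤ S.w c * (m : ℝ)⁻¹ := mul_nonneg (hw c) (by positivity)
      linarith
  rw [Fintype.sum_prod_type]
  calc _ ≤ ∑ c, ((if S.H j c = true then 0 else S.w c) + S.w c * (m : ℝ)⁻¹) :=
        sum_le_sum fun c _ => hcell c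
    _ = _ := by
        rw [sum_add_distrib, ← Finset.sum_mul, h1, one_mul]
        rfl

end St

end Vale.Agent.P235.H483U
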