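import Vale.Agent.P235.R2.H483U.Inv
import Vale.Agent.P235.H265.Elim

/-!
P235, bounded treewidth with an explicit constant, part 3: the process over a rooted tree.
-/

namespace Vale.Agent.P235.H483U

open Finset Vale.Agent.P235.H65 Vale.Agent.P235.H265 Vale.Agent.P235.H263

/-- the invariant of the states -/
structure Good {V : Type} {k L m : ℕ} (d : V → V → ℝ) (u ε : ℝ) (ηt : Fin L → V → ℝ)
    (S : St V k L m) : Prop where
  w_nonneg : ∀ c, 0 ≤ S.w c
  w_sum : ∑ c, S.w c = 1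
  dd : DD S.P d (S.g u)
  bad : ∀ j, S.bad j ≤ ε / 2
  eta : S.η = ηt

/-- the trivial state -/
noncomputable def St.triv (V : Type) (k L m : ℕ) : St V k L m where
  w := fun c => if c = (fun _ _ => 0, fun _ => false) then 1 else 0
  G := fun _ _ => 0
  H := fun _ _ => true
  η := fun _ _ => 0

theorem St.triv_w_nonneg {V : Type} {k L m : ℕ} (c : Cell k L m) :
    0 ≤ (St.triv V k L m).w c := by
  unfold St.triv
  dsimp only
  split_ifs <;> norm_num

theorem St.triv_w_sum {V : Type} {k L m : ℕ} : ∑ c, (St.triv V k L m).w c = 1 := by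
  unfold St.triv
  dsimp only
  rw [Finset.sum_ite_eq']
  simp

theorem St.triv_dd {V : Type} {k L m : ℕ} (hm : 0 < m) {d : V → V → ℝ} (hd : ∀ p q, 0 ≤ d p q)
    (u : ℝ) : DD (St.triv V k L m).P d ((St.triv V k L m).g u) := by
  intro p q t
  have hg : ∀ o v, (St.triv V k L m).g u o v = 0 := by
    intro o v
    unfold St.g St.triv
    simp
  simp only [hg, sub_self, zero_sub, abs_neg]
  rw [← Finset.sum_mul, St.sum_P hm St.triv_w_sum, one_mul]
  exact abs_le_hh (hd p q)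

theorem St.triv_bad {V : Type} {k L m : ℕ} (j : Fin L) : (St.triv V k L m).bad j = 0 := by
  unfold St.bad St.triv
  simp

/-- the constants -/
structure Consts (k L : ℕ) (c1 ε : ℝ) where
  m : ℕ
  β : ℝ
  u : ℝ
  hm : 2 ≤ m
  hmε : (m : ℝ)⁻¹ ≤ ε / 2
  hβ0 : 0 < β
  hβ : (Fintype.card (Cell k L m) : ℝ) * β ≤ ε / 2
  hu0 : 0 < u
  hu : 4 * u ≤ β * ((m : ℝ) ^ L)⁻¹

/-- the number of cells -/
def nC (k L m : ℕ) : ℕ := (m ^ L + 1) ^ (k * k) * 2 ^ L

theorem card_cell (k L m : ℕ) : Fintype.card (Cell k L m) = nC k L m := by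
  unfold nC
  rw [Fintype.card_prod, Fintype.card_fun, Fintype.card_fun, Fintype.card_fun, Fintype.card_fin,
    Fintype.card_fin, Fintype.card_fin, Fintype.card_bool, ← pow_mul]

theorem nC_pos (k L m : ℕ) : 0 < nC k L m := by
  unfold nC; positivity

/-- the constants for `ε = 1 / M` -/
noncomputable def consts (k L : ℕ) (c1 : ℝ) {M : ℕ} (hM : 1 ≤ M) : Consts k L c1 (1 / (M : ℝ)) where
  m := 2 * M
  β := 1 / (M : ℝ) / 2 / nC k L (2 * M)
  u := 1 / (M : ℝ) / 2 / nC k L (2 * M) * (((2 * M : ℕ) : ℝ) ^ L)⁻¹ / 4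
  hm := by omega
  hmε := by
    have h : (0 : ℝ) < M := by exact_mod_cast hM
    push_cast
    apply le_of_eq
    field_simp
  hβ0 := by
    have h : (0 : ℝ) < M := by exact_mod_cast hM
    have h2 : (0 : ℝ) < nC k L (2 * M) := by exact_mod_cast nC_pos _ _ _
    positivity
  hβ := by
    have h2 : (0 : ℝ) < nC k L (2 * M) := by exact_mod_cast nC_pos _ _ _
    rw [card_cell]
    apply le_of_eq
    field_simp
  hu0 := by
    have h : (0 : ℝ) < M := by exact_mod_cast hM
    have h2 : (0 : ℝ) < nC k L (2 * M) := by exact_mod_cast nC_pos _ _ _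
    positivity
  hu := by
    apply le_of_eq
    ring

/-- one step of the process -/
theorem Good.step {V : Type} {k L : ℕ} {c1 ε : ℝ} (C : Consts k L c1 ε) {d : V → V → ℝ}
    (hd : ∀ p q, 0 ≤ d p q) {ηp ηt : Fin L → V → ℝ} {S : St V k L C.m}
    (hS : Good d C.u ε ηp S) (hlip : ∀ j p q, |ηt j p - ηt j q| ≤ d p q)
    (Sl : Finset (Fin L)) (hSl : ∀ j, j ∉ Sl → ηt j = ηp j) (e : Fin k → V) :
    Good d C.u ε ηt (S.next C.u Sl e C.β ηt) := by
  have hm0 : 0 < C.m := by have := C.hm; omega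
  refine ⟨fun c => S.w'_nonneg hS.w_nonneg c, S.sum_w' hm0 hS.w_sum, ?_, ?_, ?_⟩
  · exact St.dd_next C.hm hS.w_nonneg hS.w_sum hd C.hu0.le C.hu (fun j _ => hlip j) hS.dd
  · intro j
    by_cases hj : j ∈ Sl
    · exact (St.bad_next_mem hj C.hβ0.le le_rfl).trans C.hβ
    · rw [St.bad_next_notMem hm0 hj]
      exact hS.bad j
  · funext j
    change (if j ∈ Sl then ηt j else S.η j) = ηt j
    split_ifs with hj
    · rfl
    · rw [hS.eta, hSl j hj]

/-- the number which bounds `1 / κ` -/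
def WW (k L M : ℕ) : ℕ := 192 * M ^ 2 * nC k L (2 * M) * (2 * M) ^ L

/-- **existence of the process** with an explicit constant -/
theorem exists_proc (k L : ℕ) {M : ℕ} (hM : 1 ≤ M) : ∃ κ : ℝ, 0 < κ ∧ 1 / (WW k L M : ℝ) ≤ κ ∧
    ∀ (V : Type) [DecidableEq V] (d : V → V → ℝ) (par : V → V) (rk : V → ℕ) (root : V → Prop)
      (A : V → Finset V) (η : V → Fin L → V → ℝ),
      (∀ p q, 0 ≤ d p q) → (∀ t, ¬ root t → rk (par t) < rk t) → (∀ t, (A t).card ≤ k) →
      (∀ t j p q, |η t j p - η t j q| ≤ d p q) →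
      (∀ t, ¬ root t → ∀ j, η t j = η (par t) j ∨ ∀ a ∈ A t, η t j a = 0) →
      (∀ t, ∀ p ∈ insert t (A t), ∀ q ∈ insert t (A t),
        ∃ j, (1 / 12 : ℝ) * d p q ≤ |η t j p - η t j q|) →
      Nonempty (H265.Proc V d par root A κ (1 / (M : ℝ))) := by
  classical
  set C := consts k L (1 / 12 : ℝ) hM with hCdef
  have hm0 : 0 < C.m := by have := C.hm; omega
  have hm1 : (0 : ℝ) < (C.m : ℝ) - 1 := by
    have : (2 : ℝ) ≤ C.m := by exact_mod_cast C.hm
    linarith
  have hu0 := C.hu0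
  refine ⟨1 / 12 * C.u / ((C.m : ℝ) - 1), by positivity, ?_, ?_⟩
  · have h : (1 : ℝ) ≤ M := by exact_mod_cast hM
    have h0 : (0 : ℝ) < M := by linarith
    have h2 : (0 : ℝ) < nC k L (2 * M) := by exact_mod_cast nC_pos _ _ _
    have e1 : C.u = 1 / (M : ℝ) / 2 / nC k L (2 * M) * (((2 * M : ℕ) : ℝ) ^ L)⁻¹ / 4 := rfl
    have e2 : (C.m : ℝ) = 2 * M := by
      have : C.m = 2 * M := rfl
      rw [this]; push_cast; ring
    rw [e1, e2]
    have e3 : (WW k L M : ℝ) = 192 * (M : ℝ) ^ 2 * nC k L (2 * M) * (2 * (M : ℝ)) ^ L := by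
      unfold WW; push_cast; ring
    rw [e3]
    have h3 : (0 : ℝ) < 2 * (M : ℝ) - 1 := by linarith
    have h4 : (0 : ℝ) < (2 * (M : ℝ)) ^ L := by positivity
    push_cast
    rw [div_le_div_iff₀ (by positivity) h3]
    have e4 : 1 / 12 * (1 / (M : ℝ) / 2 / (nC k L (2 * M) : ℝ) * ((2 * (M : ℝ)) ^ L)⁻¹ / 4) *
        (192 * (M : ℝ) ^ 2 * (nC k L (2 * M) : ℝ) * (2 * (M : ℝ)) ^ L) = 2 * M := by
      field_simp
      norm_num
    rw [e4]
    linarith
  intro V _ d par rk root A η hd hrk hA hlip hfresh hcap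
  choose e he using fun t => exists_enum (A t) t (hA t)
  let Sl : V → Finset (Fin L) := fun t => univ.filter fun j => η t j ≠ η (par t) j
  have hSl : ∀ t j, j ∉ Sl t → η t j = η (par t) j := by
    intro t j hj
    by_contra h
    exact hj (mem_filter.mpr ⟨mem_univ _, h⟩)
  have hSlA : ∀ t, ¬ root t → ∀ a ∈ A t, ∀ j ∈ Sl t, η t j a = 0 := by
    intro t ht a ha j hj
    rcases hfresh t ht j with h | h
    · exact absurd h (mem_filter.mp hj).2
    · exact h a ha
  obtain ⟨F, hF, hrel⟩ := H991.tree_rec par rk root hrk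
    (fun t (S : St V k L C.m) => Good d C.u (1 / (M : ℝ)) (η t) S)
    (fun t S S' => S' = S.next C.u (Sl t) (e t) C.β (η t))
    (by
      intro t _
      refine ⟨(St.triv V k L C.m).next C.u univ (e t) C.β (η t), ?_⟩
      refine Good.step C hd (ηp := fun _ _ => 0) ?_ (hlip t) univ
        (fun j hj => absurd (mem_univ j) hj) (e t)
      exact ⟨St.triv_w_nonneg, St.triv_w_sum, St.triv_dd hm0 hd C.u,
        fun j => by rw [St.triv_bad]; positivity, rfl⟩)
    (by
      intro t _ S hS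
      exact ⟨S.next C.u (Sl t) (e t) C.β (η t),
        Good.step C hd hS (hlip t) (Sl t) (hSl t) (e t), rfl⟩)
  refine ⟨{
    O := Om k L C.m
    P := fun t => (F t).P
    g := fun t => (F t).g C.u
    Q := fun t => (F (par t)).Q C.u (Sl t) (e t)
    P_nonneg := fun t o => St.P_nonneg (hF t).w_nonneg o
    P_sum := fun t => St.sum_P hm0 (hF t).w_sum
    Q_nonneg := fun t o o' => St.Q_nonneg (hF (par t)).w_nonneg o o'
    Q_left := fun t _ o => St.sum_Q_one hm0 o
    Q_right := fun t ht o' => by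
      rw [hrel t ht]
      exact St.sum_Q_snd o'
    ce := fun t ht a ha o' => by
      rw [hrel t ht]
      exact St.ce (hF (par t)).w_nonneg (hSlA t ht a ha) o'
    ord := fun t ht o o' hQ a ha b hb => by
      rw [hrel t ht]
      exact St.ord (hF (par t)).w_nonneg (hSlA t ht a ha) (hSlA t ht b hb) (he t a ha) (he t b hb)
        hQ
    dd := fun t => (hF t).dd
    ac := fun t p hp q hq => by
      obtain ⟨j, hj⟩ := hcap t p hp q hq
      have h := St.anti (S := F t) C.hm (hF t).w_nonneg (hF t).w_sum C.hu0.le (p := p) (q := q)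
        (D := d p q) (c1 := 1 / 12) (j := j) (by rw [(hF t).eta]; exact hj)
      have h2 := (hF t).bad j
      have h3 := C.hmε
      linarith }⟩

/-- **the process for an elimination form**, with an explicit constant -/
theorem exists_proc_elim (k : ℕ) {M : ℕ} (hM : 1 ≤ M) : ∃ κ : ℝ, 0 < κ ∧
    1 / (WW k (H732.Bags.LL k) M : ℝ) ≤ κ ∧
    ∀ (n : ℕ) (A : Fin n → Finset (Fin n)) (d : Fin n → Fin n → ℝ), IsElim k A → IsSep A d →
      Nonempty (H265.Proc (Fin n) d (par A) (fun t => ¬ (A t).Nonempty) A κ (1 / (M : ℝ))) := by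
  obtain ⟨κ, hκ, hW, H⟩ := exists_proc k (H732.Bags.LL k) hM
  refine ⟨κ, hκ, hW, ?_⟩
  intro n A d hA hS
  obtain ⟨η, h1, h2, h3⟩ := H732.slots_elim hA hS
  exact H (Fin n) d (par A) (fun t => (t : ℕ)) (fun t => ¬ (A t).Nonempty) A η hS.nonneg
    (fun t ht => hA.lt t _ (par_mem (not_not.mp ht))) hA.card h1 (fun t _ => h2 t) h3

end Vale.Agent.P235.H483U
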